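import Vale.Agent.P369.GFun

namespace Vale.Agent.P369

open Polynomial

/-- Beam-splitter amplitude `⟨m, k+l-m| U_η |k, l⟩` in the Fock basis.  Since
`U_η |k,l⟩ = (k! l!)^(-1/2) (√η a† - √(1-η) b†)^k (√(1-η) a† + √η b†)^l |0,0⟩`, it is
`√(m! (k+l-m)! / (k! l!))` times the coefficient of `X^m` in
`(√η X - √(1-η))^k (√(1-η) X + √η)^l`. -/
noncomputable def amp (η : ℝ) (k l m : ℕ) : ℝ :=
  Real.sqrt (((m.factorial : ℝ) * ((k + l - m).factorial : ℝ)) /
      ((k.factorial : ℝ) * (l.factorial : ℝ))) *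
    ((C (Real.sqrt η) * X - C (Real.sqrt (1 - η))) ^ k *
      (C (Real.sqrt (1 - η)) * X + C (Real.sqrt η)) ^ l).coeff m

/-- Photon-number distribution of the output mode for the Fock-diagonal inputs
`ρ_A = ∑ P k |k⟩⟨k|`, `ρ_B = ∑ Q l |l⟩⟨l|`; the output state is `∑ (outDist η P Q m) |m⟩⟨m|`. -/
noncomputable def outDist (η : ℝ) (P Q : ℕ → ℝ) (m : ℕ) : ℝ :=
  ∑' k, ∑' l, P k * Q l * amp η k l m ^ 2

/-- von Neumann entropy of the Fock-diagonal state `∑ P k |k⟩⟨k|`. -/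
noncomputable def entropy (P : ℕ → ℝ) : ℝ := ∑' k, Real.negMulLog (P k)

/-- Entropy photon number of a one-mode state of entropy `S`: the inverse of `g` on `[0,∞)`. -/
noncomputable def photonNumber (S : ℝ) : ℝ := Function.invFunOn g (Set.Ici 0) S

end Vale.Agent.P369
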