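import Vale.Agent.P369.Model

namespace Vale.Agent.P369

open Real Set

theorem binEntropy_min (p : ℝ) : binEntropy (min p (1 - p)) = binEntropy p := by
  rcases le_total p (1 - p) with h | h
  · rw [min_eq_left h]
  · rw [min_eq_right h, binEntropy_one_sub]

theorem binEntropy_mono_fold {x m : ℝ} (hx0 : 0 ≤ x) (hxm : x ≤ m) (hxm' : x ≤ 1 - m) :
    binEntropy x ≤ binEntropy m := by
  rcases le_total m (1 / 2) with h | h
  · exact binEntropy_strictMonoOn.monotoneOn ⟨hx0, by norm_num at h ⊢; linarith⟩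
      ⟨by linarith, by norm_num at h ⊢; linarith⟩ hxm
  · rw [← binEntropy_one_sub m]
    exact binEntropy_strictMonoOn.monotoneOn ⟨hx0, by norm_num at h ⊢; linarith⟩
      ⟨by linarith, by norm_num at h ⊢; linarith⟩ hxm'

theorem epni_core {η p q a b c : ℝ} (hη0 : 0 ≤ η) (hη1 : η ≤ 1) (hp0 : 0 ≤ p) (hp1 : p ≤ 1)
    (hq0 : 0 ≤ q) (hq1 : q ≤ 1) (ha : 0 ≤ a) (hb : 0 ≤ b) (hc : 0 ≤ c)
    (hga : g a = binEntropy p) (hgb : g b = binEntropy q)
    (hgc : g c = H3 (1 - (η * p + (1 - η) * q) + 2 * η * (1 - η) * p * q)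
      ((η * p + (1 - η) * q) - 2 * (2 * η * (1 - η) * p * q)) (2 * η * (1 - η) * p * q)) :
    η * a + (1 - η) * b ≤ c := by
  have hη' : 0 ≤ 1 - η := by linarith
  have hm0 : 0 ≤ η * p + (1 - η) * q := by positivity
  have hm1 : η * p + (1 - η) * q ≤ 1 := by nlinarith
  have hs0 : 0 ≤ 2 * η * (1 - η) * p * q := by positivity
  have hs : 2 * η * (1 - η) * p * q ≤ (η * p + (1 - η) * q) ^ 2 / 2 := by
    nlinarith [sq_nonneg (η * p - (1 - η) * q)]
  have h3 := binEntropy_le_H3 hm0 hm1 hs0 hs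
  have hpt0 : 0 ≤ min p (1 - p) := le_min hp0 (by linarith)
  have hqt0 : 0 ≤ min q (1 - q) := le_min hq0 (by linarith)
  have hpt : min p (1 - p) ≤ 1 / 2 := by
    rcases le_total p (1 - p) with h | h
    · rw [min_eq_left h]; linarith
    · rw [min_eq_right h]; linarith
  have hqt : min q (1 - q) ≤ 1 / 2 := by
    rcases le_total q (1 - q) with h | h
    · rw [min_eq_left h]; linarith
    · rw [min_eq_right h]; linarith
  have h1 := quasi_mean hpt0 hpt hqt0 hqt ha hb (by rw [binEntropy_min]; exact hga)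
    (by rw [binEntropy_min]; exact hgb) hη0 hη1
  have h2 : binEntropy (η * min p (1 - p) + (1 - η) * min q (1 - q)) ≤
      binEntropy (η * p + (1 - η) * q) := by
    apply binEntropy_mono_fold (by positivity)
    · have i1 : η * min p (1 - p) ≤ η * p := mul_le_mul_of_nonneg_left (min_le_left _ _) hη0
      have i2 : (1 - η) * min q (1 - q) ≤ (1 - η) * q :=
        mul_le_mul_of_nonneg_left (min_le_left _ _) hη'
      linarith
    · have i1 : η * min p (1 - p) ≤ η * (1 - p) := mul_le_mul_of_nonneg_left (min_le_right _ _) hη0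
      have i2 : (1 - η) * min q (1 - q) ≤ (1 - η) * (1 - q) :=
        mul_le_mul_of_nonneg_left (min_le_right _ _) hη'
      linarith
  have h4 : g (η * a + (1 - η) * b) ≤ g c := by rw [hgc]; linarith
  exact (g_le_iff (by positivity) hc).mp h4

theorem photonNumber_spec {S : ℝ} (hS : 0 ≤ S) : 0 ≤ photonNumber S ∧ g (photonNumber S) = S := by
  obtain ⟨t, ht, hgt⟩ := g_surj hS
  have hex : ∃ a ∈ Ici (0 : ℝ), g a = S := ⟨t, ht, hgt⟩
  exact ⟨Function.invFunOn_mem hex, Function.invFunOn_eq hex⟩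

theorem outDist_two (η : ℝ) {P Q : ℕ → ℝ} (hPs : ∀ k, 2 ≤ k → P k = 0)
    (hQs : ∀ k, 2 ≤ k → Q k = 0) (m : ℕ) :
    outDist η P Q m = P 0 * Q 0 * amp η 0 0 m ^ 2 + P 0 * Q 1 * amp η 0 1 m ^ 2 +
      (P 1 * Q 0 * amp η 1 0 m ^ 2 + P 1 * Q 1 * amp η 1 1 m ^ 2) := by
  unfold outDist
  have inner : ∀ k, ∑' l, P k * Q l * amp η k l m ^ 2 =
      ∑ l ∈ Finset.range 2, P k * Q l * amp η k l m ^ 2 := by
    intro k
    apply tsum_eq_sum
    intro l hl
    rw [hQs l (by simp only [Finset.mem_range, not_lt] at hl; exact hl)]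
    ring
  rw [tsum_eq_sum (s := Finset.range 2)]
  · simp only [inner, Finset.sum_range_succ, Finset.sum_range_zero, zero_add]
  · intro k hk
    rw [inner]
    rw [hPs k (by simp only [Finset.mem_range, not_lt] at hk; exact hk)]
    simp

theorem entropy_two {P : ℕ → ℝ} (hPs : ∀ k, 2 ≤ k → P k = 0) (hP1 : ∑' k, P k = 1) :
    P 0 = 1 - P 1 ∧ entropy P = binEntropy (P 1) := by
  have h1 : ∑' k, P k = ∑ k ∈ Finset.range 2, P k := by
    apply tsum_eq_sum
    intro k hk
    exact hPs k (by simp only [Finset.mem_range, not_lt] at hk; exact hk)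
  rw [h1] at hP1
  simp only [Finset.sum_range_succ, Finset.sum_range_zero, zero_add] at hP1
  have h0 : P 0 = 1 - P 1 := by linarith
  refine ⟨h0, ?_⟩
  unfold entropy
  rw [tsum_eq_sum (s := Finset.range 2)]
  · simp only [Finset.sum_range_succ, Finset.sum_range_zero, zero_add]
    rw [binEntropy_eq_negMulLog_add_negMulLog_one_sub, h0]
    ring
  · intro k hk
    rw [hPs k (by simp only [Finset.mem_range, not_lt] at hk; exact hk)]
    simp

theorem epni_two_level (η : ℝ) (hη0 : 0 ≤ η) (hη1 : η ≤ 1) (P Q : ℕ → ℝ)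
    (hP : ∀ k, 0 ≤ P k) (hQ : ∀ k, 0 ≤ Q k) (hP1 : ∑' k, P k = 1) (hQ1 : ∑' k, Q k = 1)
    (hPs : ∀ k, 2 ≤ k → P k = 0) (hQs : ∀ k, 2 ≤ k → Q k = 0) :
    η * photonNumber (entropy P) + (1 - η) * photonNumber (entropy Q) ≤
      photonNumber (entropy (outDist η P Q)) := by
  obtain ⟨hP0, hEP⟩ := entropy_two hPs hP1
  obtain ⟨hQ0, hEQ⟩ := entropy_two hQs hQ1
  set p := P 1 with hp
  set q := Q 1 with hq
  have hp0 : 0 ≤ p := hP 1
  have hq0 : 0 ≤ q := hQ 1
  have hp1 : p ≤ 1 := by have := hP 0; linarith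
  have hq1 : q ≤ 1 := by have := hQ 0; linarith
  have hout : ∀ m, outDist η P Q m =
      if m = 0 then 1 - (η * p + (1 - η) * q) + 2 * η * (1 - η) * p * q
      else if m = 1 then (η * p + (1 - η) * q) - 2 * (2 * η * (1 - η) * p * q)
      else if m = 2 then 2 * η * (1 - η) * p * q else 0 := by
    intro m
    rw [outDist_two η hPs hQs, amp00, amp01 hη0 hη1, amp10 hη0 hη1, amp11 hη0 hη1, hP0, hQ0]
    match m with
    | 0 => simp; ring
    | 1 => simp; ring
    | 2 => simp; ring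
    | (k + 3) => simp
  have hEC : entropy (outDist η P Q) =
      H3 (1 - (η * p + (1 - η) * q) + 2 * η * (1 - η) * p * q)
      ((η * p + (1 - η) * q) - 2 * (2 * η * (1 - η) * p * q)) (2 * η * (1 - η) * p * q) := by
    unfold entropy H3
    rw [tsum_eq_sum (s := Finset.range 3)]
    · simp only [Finset.sum_range_succ, Finset.sum_range_zero, zero_add, hout]
      simp
    · intro k hk
      have hk3 : 3 ≤ k := by simp only [Finset.mem_range, not_lt] at hk; exact hk
      rw [hout]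
      have n0 : k ≠ 0 := by omega
      have n1 : k ≠ 1 := by omega
      have n2 : k ≠ 2 := by omega
      simp [n0, n1, n2]
  have hSA : 0 ≤ entropy P := by rw [hEP]; exact binEntropy_nonneg hp0 hp1
  have hSB : 0 ≤ entropy Q := by rw [hEQ]; exact binEntropy_nonneg hq0 hq1
  have hη' : 0 ≤ 1 - η := by linarith
  have hSC : 0 ≤ entropy (outDist η P Q) := by
    rw [hEC]
    have hm0 : 0 ≤ η * p + (1 - η) * q := by positivity
    have hm1 : η * p + (1 - η) * q ≤ 1 := by nlinarith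
    have hs0 : 0 ≤ 2 * η * (1 - η) * p * q := by positivity
    have hs : 2 * η * (1 - η) * p * q ≤ (η * p + (1 - η) * q) ^ 2 / 2 := by
      nlinarith [sq_nonneg (η * p - (1 - η) * q)]
    exact le_trans (binEntropy_nonneg hm0 hm1) (binEntropy_le_H3 hm0 hm1 hs0 hs)
  obtain ⟨ha, hga⟩ := photonNumber_spec hSA
  obtain ⟨hb, hgb⟩ := photonNumber_spec hSB
  obtain ⟨hc, hgc⟩ := photonNumber_spec hSC
  exact epni_core hη0 hη1 hp0 hp1 hq0 hq1 ha hb hc (hga.trans hEP) (hgb.trans hEQ) (hgc.trans hEC)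

end Vale.Agent.P369
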