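import Mathlib

namespace Vale.Agent.P369

open Real Set

/-- the bosonic entropy function `g(t) = (t+1) log (t+1) - t log t` -/
noncomputable def g (t : ℝ) : ℝ := (t + 1) * Real.log (t + 1) - t * Real.log t

theorem g_zero : g 0 = 0 := by simp [g]

theorem g_continuous : Continuous g := by
  unfold g
  have h1 : Continuous fun x : ℝ => x * Real.log x := Real.continuous_mul_log
  have h2 : Continuous fun t : ℝ => (t + 1) * Real.log (t + 1) :=
    h1.comp (continuous_id.add continuous_const)
  exact h2.sub h1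

theorem hasDerivAt_g {t : ℝ} (ht : 0 < t) :
    HasDerivAt g (Real.log (t + 1) - Real.log t) t := by
  have h1 : HasDerivAt (fun x : ℝ => x * Real.log x) (Real.log t + 1) t :=
    Real.hasDerivAt_mul_log ht.ne'
  have h2 : HasDerivAt (fun x : ℝ => x * Real.log x) (Real.log (t + 1) + 1) (t + 1) :=
    Real.hasDerivAt_mul_log (by positivity)
  have h3 : HasDerivAt (fun x : ℝ => (x + 1) * Real.log (x + 1)) (Real.log (t + 1) + 1) t :=
    HasDerivAt.comp_add_const t 1 h2
  have h4 := h3.sub h1
  have e : Real.log (t + 1) + 1 - (Real.log t + 1) = Real.log (t + 1) - Real.log t := by ring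
  rw [e] at h4
  exact h4

theorem g_strictMonoOn : StrictMonoOn g (Ici 0) := by
  apply strictMonoOn_of_deriv_pos (convex_Ici 0) g_continuous.continuousOn
  intro x hx
  rw [interior_Ici] at hx
  have hx0 : 0 < x := hx
  rw [(hasDerivAt_g hx0).deriv]
  have : Real.log x < Real.log (x + 1) := Real.log_lt_log hx0 (by linarith)
  linarith

theorem g_nonneg {t : ℝ} (ht : 0 ≤ t) : 0 ≤ g t := by
  rw [← g_zero]
  exact g_strictMonoOn.monotoneOn (mem_Ici.mpr le_rfl) (mem_Ici.mpr ht) ht

theorem g_le_iff {s t : ℝ} (hs : 0 ≤ s) (ht : 0 ≤ t) : g s ≤ g t ↔ s ≤ t :=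
  g_strictMonoOn.le_iff_le (mem_Ici.mpr hs) (mem_Ici.mpr ht)

theorem g_injOn : InjOn g (Ici 0) := g_strictMonoOn.injOn

theorem g_le_log_two {t : ℝ} (ht : 0 ≤ t) : g t ≤ (1 + t) * Real.log 2 := by
  rcases ht.eq_or_lt with rfl | htpos
  · rw [g_zero]
    have : 0 ≤ Real.log 2 := Real.log_nonneg (by norm_num)
    linarith
  have h1 : (0 : ℝ) < 1 + t := by linarith
  have key : g t = (1 + t) * Real.binEntropy (t / (1 + t)) := by
    have e1 : 1 - t / (1 + t) = 1 / (1 + t) := by field_simp; ring
    unfold g Real.binEntropy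
    rw [e1, Real.log_inv, Real.log_inv, Real.log_div htpos.ne' h1.ne', Real.log_div one_ne_zero h1.ne',
      Real.log_one]
    have e2 : t + 1 = 1 + t := by ring
    rw [e2]
    field_simp
    ring
  rw [key]
  exact mul_le_mul_of_nonneg_left Real.binEntropy_le_log_two h1.le

theorem g_surj {s : ℝ} (hs : 0 ≤ s) : ∃ t ∈ Ici (0 : ℝ), g t = s := by
  have hT : (0 : ℝ) < Real.exp s := Real.exp_pos s
  have hgT : s ≤ g (Real.exp s) := by
    have h1 : Real.log (Real.exp s) = s := Real.log_exp s
    have h2 : Real.log (Real.exp s) ≤ Real.log (Real.exp s + 1) :=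
      Real.log_le_log hT (by linarith)
    unfold g
    rw [h1] at *
    nlinarith
  have := intermediate_value_Icc hT.le g_continuous.continuousOn
  rw [g_zero] at this
  obtain ⟨t, ht, hgt⟩ := this ⟨hs, hgT⟩
  exact ⟨t, ht.1, hgt⟩

end Vale.Agent.P369
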