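import Vale.Agent.P369.GFun

namespace Vale.Agent.P369

open Real Set Filter Topology

/-- an interior local minimum cannot have vanishing first and negative second derivative -/
theorem no_interior_min {f f1 : ℝ → ℝ} {f2 t0 : ℝ} (hmin : IsLocalMin f t0)
    (hd : ∀ᶠ t in 𝓝 t0, HasDerivAt f (f1 t) t) (hd2 : HasDerivAt f1 f2 t0) (hneg : f2 < 0) :
    False := by
  have e1 : deriv f =ᶠ[𝓝 t0] f1 := hd.mono (fun t ht => ht.deriv)
  have e2 : deriv (deriv f) t0 = f2 := by rw [e1.deriv_eq, hd2.deriv]
  have e3 : deriv f t0 = 0 := hmin.deriv_eq_zero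
  have hc : ContinuousAt f t0 := hd.self_of_nhds.continuousAt
  have hmax : IsLocalMax f t0 := isLocalMax_of_deriv_deriv_neg (by rw [e2]; exact hneg) e3 hc
  have hconst : f =ᶠ[𝓝 t0] fun _ => f t0 :=
    (hmax.and hmin).mono (fun z hz => le_antisymm hz.1 hz.2)
  have e4 : deriv f =ᶠ[𝓝 t0] deriv (fun _ => f t0) := hconst.deriv
  have e5 : deriv (deriv f) t0 = 0 := by
    rw [e4.deriv_eq]
    simp
  rw [e2] at e5
  linarith

theorem one_add_mul_log_le {t : ℝ} (ht : 0 ≤ t) :
    (1 + t) * Real.log (1 + t) ≤ t + t ^ 2 / 2 := by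
  have hmono : MonotoneOn (fun t : ℝ => t + t ^ 2 / 2 - (1 + t) * Real.log (1 + t)) (Ici 0) := by
    have hder : ∀ x : ℝ, 0 < x → HasDerivAt
        (fun t : ℝ => t + t ^ 2 / 2 - (1 + t) * Real.log (1 + t)) (x - Real.log (1 + x)) x := by
      intro x hx
      have h2 : HasDerivAt (fun x : ℝ => x * Real.log x) (Real.log (1 + x) + 1) (1 + x) :=
        Real.hasDerivAt_mul_log (by positivity)
      have h3 : HasDerivAt (fun x : ℝ => (1 + x) * Real.log (1 + x)) (Real.log (1 + x) + 1) x :=
        HasDerivAt.comp_const_add 1 x h2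
      have h4 : HasDerivAt (fun t : ℝ => t + t ^ 2 / 2) (1 + (2 * x) / 2) x := by
        have := ((hasDerivAt_id' x).fun_add ((hasDerivAt_pow 2 x).div_const 2))
        simpa using this
      have h5 := h4.fun_sub h3
      have e : 1 + 2 * x / 2 - (Real.log (1 + x) + 1) = x - Real.log (1 + x) := by ring
      rw [e] at h5
      exact h5
    apply monotoneOn_of_deriv_nonneg (convex_Ici 0)
    · have h1 : Continuous fun x : ℝ => x * Real.log x := Real.continuous_mul_log
      have h2 : Continuous fun t : ℝ => (1 + t) * Real.log (1 + t) :=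
        h1.comp (continuous_const.add continuous_id)
      exact (((continuous_id.add ((continuous_id.pow 2).div_const 2))).sub h2).continuousOn
    · intro x hx
      rw [interior_Ici] at hx
      exact (hder x hx).differentiableAt.differentiableWithinAt
    · intro x hx
      rw [interior_Ici] at hx
      have hx0 : 0 < x := hx
      rw [(hder x hx0).deriv]
      have := Real.log_le_sub_one_of_pos (show 0 < 1 + x by linarith)
      linarith
  have := hmono (mem_Ici.mpr le_rfl) (mem_Ici.mpr ht) ht
  simp at this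
  linarith

theorem neg_log_one_sub_ge {x : ℝ} (h0 : 0 ≤ x) (h1 : x < 1) :
    x + x ^ 2 / 2 ≤ -Real.log (1 - x) := by
  have hpos : 0 < 1 - x := by linarith
  have hu : 0 ≤ x / (1 - x) := div_nonneg h0 hpos.le
  have h := Real.le_log_one_add_of_nonneg hu
  have e1 : 1 + x / (1 - x) = (1 - x)⁻¹ := by field_simp; ring
  rw [e1, Real.log_inv] at h
  have e2 : 2 * (x / (1 - x)) / (x / (1 - x) + 2) = 2 * x / (2 - x) := by
    have : (2 : ℝ) - x ≠ 0 := by linarith
    field_simp
    ring
  rw [e2] at h
  have h2 : x + x ^ 2 / 2 ≤ 2 * x / (2 - x) := by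
    rw [le_div_iff₀ (by linarith)]
    nlinarith [pow_nonneg h0 3]
  linarith

/-- the geometric law with mean `x (1 - x)` has at most the entropy of the Bernoulli law -/
theorem g_mul_one_sub_le {x : ℝ} (h0 : 0 < x) (h1 : x < 1) : g (x * (1 - x)) ≤ binEntropy x := by
  have hw : 0 < 1 - x := by linarith
  have ht : 0 < x * (1 - x) := mul_pos h0 hw
  have i1 := one_add_mul_log_le ht.le
  have i2 := neg_log_one_sub_ge h0.le h1
  have i3 := Real.log_le_sub_one_of_pos h0
  have e4 : binEntropy x = -x * Real.log x - (1 - x) * Real.log (1 - x) := by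
    unfold binEntropy
    rw [Real.log_inv, Real.log_inv]
    ring
  have e5 : g (x * (1 - x)) = (1 + x * (1 - x)) * Real.log (1 + x * (1 - x)) -
      x * (1 - x) * (Real.log x + Real.log (1 - x)) := by
    unfold g
    rw [Real.log_mul h0.ne' hw.ne']
    have : x * (1 - x) + 1 = 1 + x * (1 - x) := by ring
    rw [this]
  rw [e4, e5]
  have j2 : (1 - x) ^ 2 * (x + x ^ 2 / 2) ≤ (1 - x) ^ 2 * (-Real.log (1 - x)) :=
    mul_le_mul_of_nonneg_left i2 (by positivity)
  have j3 : x ^ 2 * (1 - x) ≤ x ^ 2 * (-Real.log x) :=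
    mul_le_mul_of_nonneg_left (by linarith) (by positivity)
  nlinarith

/-- `B y = y (y+1) (log (y+1) - log y)^2`, the bosonic heat capacity -/
noncomputable def Bfun (y : ℝ) : ℝ := y * (y + 1) * (Real.log (y + 1) - Real.log y) ^ 2

theorem Bfun_monotoneOn : MonotoneOn Bfun (Ioi 0) := by
  have hder : ∀ x : ℝ, 0 < x → HasDerivAt Bfun
      ((Real.log (x + 1) - Real.log x) * ((2 * x + 1) * (Real.log (x + 1) - Real.log x) - 2)) x := by
    intro x hx
    have hx1 : 0 < x + 1 := by linarith
    have l1 : HasDerivAt (fun y : ℝ => Real.log (y + 1)) (x + 1)⁻¹ x :=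
      HasDerivAt.comp_add_const x 1 (Real.hasDerivAt_log hx1.ne')
    have l2 : HasDerivAt (fun y : ℝ => Real.log y) x⁻¹ x := Real.hasDerivAt_log hx.ne'
    have l3 := (l1.fun_sub l2).fun_pow 2
    have p1 : HasDerivAt (fun y : ℝ => y * (y + 1)) (1 * (x + 1) + x * 1) x :=
      (hasDerivAt_id' x).fun_mul ((hasDerivAt_id' x).add_const 1)
    have h := p1.fun_mul l3
    refine h.congr_deriv ?_
    field_simp
    ring
  apply monotoneOn_of_deriv_nonneg (convex_Ioi 0)
  · intro x hx
    exact (hder x hx).continuousAt.continuousWithinAt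
  · intro x hx
    rw [interior_Ioi] at hx
    exact (hder x hx).differentiableAt.differentiableWithinAt
  · intro x hx
    rw [interior_Ioi] at hx
    have hx0 : 0 < x := hx
    rw [(hder x hx0).deriv]
    have hL : Real.log (x + 1) - Real.log x = Real.log (1 + 1 / x) := by
      rw [← Real.log_div (by linarith) hx0.ne']
      congr 1
      field_simp
    have h := Real.le_log_one_add_of_nonneg (show 0 ≤ 1 / x by positivity)
    have e2 : 2 * (1 / x) / (1 / x + 2) = 2 / (2 * x + 1) := by
      field_simp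
      ring
    rw [e2, ← hL] at h
    have h2 : 2 ≤ (2 * x + 1) * (Real.log (x + 1) - Real.log x) := by
      rw [div_le_iff₀ (by linarith)] at h
      linarith
    have h3 : 0 ≤ Real.log (x + 1) - Real.log x := by
      have : 0 ≤ 2 / (2 * x + 1) := by positivity
      linarith
    exact mul_nonneg h3 (by linarith)

end Vale.Agent.P369
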