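import Vale.Agent.P369.GFun

namespace Vale.Agent.P369

open Real Set

/-- Shannon entropy of a three-point distribution -/
noncomputable def H3 (x y z : ℝ) : ℝ := negMulLog x + negMulLog y + negMulLog z

theorem binEntropy_le_H3_max {m : ℝ} (h0 : 0 ≤ m) (h1 : m ≤ 1) :
    binEntropy m ≤ H3 (1 - m + m ^ 2 / 2) (m - m ^ 2) (m ^ 2 / 2) := by
  have hlog2 : 0 ≤ Real.log 2 := Real.log_nonneg (by norm_num)
  rcases h0.eq_or_lt with rfl | hm0
  · simp [H3]
  rcases h1.eq_or_lt with rfl | hm1
  · simp only [binEntropy_one, H3]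
    norm_num
    have : negMulLog (1 / 2 : ℝ) = (1 / 2) * Real.log 2 := by
      unfold negMulLog
      rw [one_div, Real.log_inv]
      ring
    rw [this]
    linarith
  set w := 1 - m with hw
  have hw0 : 0 < w := by rw [hw]; linarith
  have hA : 1 - m + m ^ 2 / 2 = (1 + w ^ 2) / 2 := by rw [hw]; ring
  have hB : m - m ^ 2 = m * w := by rw [hw]; ring
  have hpos : (0 : ℝ) < 1 + w ^ 2 := by positivity
  have e1 : negMulLog ((1 + w ^ 2) / 2) =
      -((1 + w ^ 2) / 2) * (Real.log (1 + w ^ 2) - Real.log 2) := by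
    unfold negMulLog
    rw [Real.log_div hpos.ne' (by norm_num)]
  have e2 : negMulLog (m * w) = -(m * w) * (Real.log m + Real.log w) := by
    unfold negMulLog
    rw [Real.log_mul hm0.ne' hw0.ne']
  have e3 : negMulLog (m ^ 2 / 2) = -(m ^ 2 / 2) * (2 * Real.log m - Real.log 2) := by
    unfold negMulLog
    rw [Real.log_div (by positivity) (by norm_num), Real.log_pow]
    norm_num
  have e4 : binEntropy m = -m * Real.log m - w * Real.log w := by
    unfold binEntropy
    rw [Real.log_inv, Real.log_inv]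
    ring
  have hg := g_le_log_two (t := w ^ 2) (by positivity)
  have e5 : g (w ^ 2) = (1 + w ^ 2) * Real.log (1 + w ^ 2) - 2 * w ^ 2 * Real.log w := by
    unfold g
    rw [Real.log_pow]
    have : w ^ 2 + 1 = 1 + w ^ 2 := by ring
    rw [this]
    push_cast
    ring
  rw [e5] at hg
  unfold H3
  rw [hA, hB, e1, e2, e3, e4]
  have hm : m = 1 - w := by rw [hw]; ring
  have hm2 : 0 ≤ m ^ 2 / 2 * Real.log 2 := by positivity
  rw [hm] at hm2 ⊢
  nlinarith

theorem binEntropy_le_H3 {m s : ℝ} (h0 : 0 ≤ m) (h1 : m ≤ 1) (hs0 : 0 ≤ s) (hs : s ≤ m ^ 2 / 2) :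
    binEntropy m ≤ H3 (1 - m + s) (m - 2 * s) s := by
  rcases h0.eq_or_lt with rfl | hm0
  · have : s = 0 := le_antisymm (by simpa using hs) hs0
    subst this
    simp [H3]
  have hM : 0 < m ^ 2 / 2 := by positivity
  set l := s / (m ^ 2 / 2) with hl
  have hl0 : 0 ≤ l := div_nonneg hs0 hM.le
  have hl1 : l ≤ 1 := (div_le_one hM).mpr hs
  have hsl : s = l * (m ^ 2 / 2) := by rw [hl]; field_simp
  have hconc := Real.concaveOn_negMulLog
  have hmm : m ^ 2 ≤ m := by nlinarith
  have c1 : l * negMulLog (1 - m + m ^ 2 / 2) + (1 - l) * negMulLog (1 - m) ≤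
      negMulLog (1 - m + s) := by
    have := hconc.2 (x := 1 - m + m ^ 2 / 2) (y := 1 - m) (mem_Ici.mpr (by nlinarith))
      (mem_Ici.mpr (by linarith)) hl0 (by linarith : 0 ≤ 1 - l) (by ring)
    simp only [smul_eq_mul] at this
    have e : l * (1 - m + m ^ 2 / 2) + (1 - l) * (1 - m) = 1 - m + s := by rw [hsl]; ring
    rw [e] at this
    exact this
  have c2 : l * negMulLog (m - m ^ 2) + (1 - l) * negMulLog m ≤ negMulLog (m - 2 * s) := by
    have := hconc.2 (x := m - m ^ 2) (y := m) (mem_Ici.mpr (by linarith))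
      (mem_Ici.mpr (by linarith)) hl0 (by linarith : 0 ≤ 1 - l) (by ring)
    simp only [smul_eq_mul] at this
    have e : l * (m - m ^ 2) + (1 - l) * m = m - 2 * s := by rw [hsl]; ring
    rw [e] at this
    exact this
  have c3 : l * negMulLog (m ^ 2 / 2) + (1 - l) * negMulLog 0 ≤ negMulLog s := by
    have := hconc.2 (x := m ^ 2 / 2) (y := 0) (mem_Ici.mpr hM.le)
      (mem_Ici.mpr le_rfl) hl0 (by linarith : 0 ≤ 1 - l) (by ring)
    simp only [smul_eq_mul] at this
    have e : l * (m ^ 2 / 2) + (1 - l) * 0 = s := by rw [hsl]; ring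
    rw [e] at this
    exact this
  have hmax := binEntropy_le_H3_max h0 h1
  have hb : binEntropy m = negMulLog m + negMulLog (1 - m) :=
    binEntropy_eq_negMulLog_add_negMulLog_one_sub m
  rw [negMulLog_zero] at c3
  unfold H3 at hmax ⊢
  rw [hb] at hmax ⊢
  nlinarith

end Vale.Agent.P369
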