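import Vale.Agent.P369.Lemmas

namespace Vale.Agent.P369

open Real Set Filter Topology

theorem heat_capacity_lt {x y : ℝ} (hx0 : 0 < x) (hx1 : x < 1 / 2) (hy : 0 < y)
    (hlt : binEntropy x < g y) :
    (Real.log (1 - x) - Real.log x) ^ 2 * (x * (1 - x)) < Bfun y := by
  have hw : 0 < 1 - x := by linarith
  set y1 := x * (1 - x) with hy1
  have hy1pos : 0 < y1 := mul_pos hx0 hw
  have h1 : g y1 ≤ binEntropy x := g_mul_one_sub_le hx0 (by linarith)
  have hyy : y1 ≤ y := by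
    by_contra hcon
    rw [not_le] at hcon
    have := (g_le_iff hy.le hy1pos.le).mpr hcon.le
    linarith
  have hB : Bfun y1 ≤ Bfun y := Bfun_monotoneOn (mem_Ioi.mpr hy1pos) (mem_Ioi.mpr hy) hyy
  have hβ : 0 < Real.log (1 - x) - Real.log x := by
    have : Real.log x < Real.log (1 - x) := Real.log_lt_log hx0 (by linarith)
    linarith
  have hL : Real.log (1 - x) - Real.log x ≤ Real.log (y1 + 1) - Real.log y1 := by
    rw [← Real.log_div hw.ne' hx0.ne', ← Real.log_div (by positivity) hy1pos.ne']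
    apply Real.log_le_log (by positivity)
    rw [div_le_div_iff₀ hx0 hy1pos, hy1]
    nlinarith [mul_pos hx0 hw, mul_pos (mul_pos hx0 hw) hw, mul_pos (mul_pos hx0 hw) hx0]
  have hsq : (Real.log (1 - x) - Real.log x) ^ 2 ≤ (Real.log (y1 + 1) - Real.log y1) ^ 2 :=
    pow_le_pow_left₀ hβ.le hL 2
  have hβ2 : 0 < (Real.log (1 - x) - Real.log x) ^ 2 := by positivity
  have : (Real.log (1 - x) - Real.log x) ^ 2 * y1 < Bfun y1 := by
    unfold Bfun
    have k1 : y1 * (y1 + 1) * (Real.log (1 - x) - Real.log x) ^ 2 ≤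
        y1 * (y1 + 1) * (Real.log (y1 + 1) - Real.log y1) ^ 2 :=
      mul_le_mul_of_nonneg_left hsq (by positivity)
    have k2 : 0 < y1 * y1 * (Real.log (1 - x) - Real.log x) ^ 2 := by positivity
    nlinarith
  linarith

theorem second_deriv_neg {p q a b x0 y0 βh βg : ℝ} (hpq : p ≠ q) (hx0 : 0 < x0) (hx1 : x0 < 1)
    (hy0 : 0 < y0) (hβgpos : 0 < βg) (hrel : βh * (p - q) = βg * (a - b))
    (hcap : βh ^ 2 * (x0 * (1 - x0)) < y0 * (y0 + 1) * βg ^ 2) :
    (-(p - q) / (1 - x0) - (p - q) / x0) * (p - q) -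
        ((a - b) / (y0 + 1) - (a - b) / y0) * (a - b) < 0 := by
  have hP : 0 < (p - q) ^ 2 := by
    have : p - q ≠ 0 := sub_ne_zero.mpr hpq
    positivity
  have hX : 0 < x0 * (1 - x0) := mul_pos hx0 (by linarith)
  have hY : 0 < y0 * (y0 + 1) := mul_pos hy0 (by linarith)
  have e : (-(p - q) / (1 - x0) - (p - q) / x0) * (p - q) -
      ((a - b) / (y0 + 1) - (a - b) / y0) * (a - b) =
      ((a - b) ^ 2 * (x0 * (1 - x0)) - (p - q) ^ 2 * (y0 * (y0 + 1))) /
        ((x0 * (1 - x0)) * (y0 * (y0 + 1))) := by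
    have n1 : x0 ≠ 0 := hx0.ne'
    have n2 : 1 - x0 ≠ 0 := by linarith
    have n3 : y0 ≠ 0 := hy0.ne'
    have n4 : y0 + 1 ≠ 0 := by linarith
    field_simp
    ring
  rw [e]
  apply div_neg_of_neg_of_pos _ (mul_pos hX hY)
  have k1 : βg ^ 2 * ((a - b) ^ 2 * (x0 * (1 - x0))) = (p - q) ^ 2 * (βh ^ 2 * (x0 * (1 - x0))) := by
    calc βg ^ 2 * ((a - b) ^ 2 * (x0 * (1 - x0))) = (βg * (a - b)) ^ 2 * (x0 * (1 - x0)) := by ring
      _ = (βh * (p - q)) ^ 2 * (x0 * (1 - x0)) := by rw [hrel]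
      _ = (p - q) ^ 2 * (βh ^ 2 * (x0 * (1 - x0))) := by ring
  have k2 : (p - q) ^ 2 * (βh ^ 2 * (x0 * (1 - x0))) < (p - q) ^ 2 * (y0 * (y0 + 1) * βg ^ 2) :=
    mul_lt_mul_of_pos_left hcap hP
  have k3 : βg ^ 2 * ((a - b) ^ 2 * (x0 * (1 - x0)) - (p - q) ^ 2 * (y0 * (y0 + 1))) < 0 := by
    have : βg ^ 2 * ((a - b) ^ 2 * (x0 * (1 - x0)) - (p - q) ^ 2 * (y0 * (y0 + 1))) =
        (p - q) ^ 2 * (βh ^ 2 * (x0 * (1 - x0))) - (p - q) ^ 2 * (y0 * (y0 + 1) * βg ^ 2) := by
      rw [mul_sub, k1]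
      ring
    rw [this]
    linarith
  have hβ2 : 0 < βg ^ 2 := by positivity
  by_contra hcon
  rw [not_lt] at hcon
  have := mul_nonneg hβ2.le hcon
  linarith

theorem quasi_mean {p q a b l : ℝ} (hp0 : 0 ≤ p) (hp : p ≤ 1 / 2) (hq0 : 0 ≤ q) (hq : q ≤ 1 / 2)
    (ha : 0 ≤ a) (hb : 0 ≤ b) (hga : g a = binEntropy p) (hgb : g b = binEntropy q)
    (hl0 : 0 ≤ l) (hl1 : l ≤ 1) :
    g (l * a + (1 - l) * b) ≤ binEntropy (l * p + (1 - l) * q) := by
  by_cases hpq : p = q
  · subst hpq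
    have hab : a = b := g_injOn (mem_Ici.mpr ha) (mem_Ici.mpr hb) (hga.trans hgb.symm)
    subst hab
    have e1 : l * a + (1 - l) * a = a := by ring
    have e2 : l * p + (1 - l) * p = p := by ring
    rw [e1, e2, hga]
  have hab : a ≠ b := by
    intro h
    apply hpq
    have h2 : binEntropy p = binEntropy q := by rw [← hga, ← hgb, h]
    have i1 : p ∈ Icc (0 : ℝ) 2⁻¹ := ⟨hp0, by norm_num at hp ⊢; linarith⟩
    have i2 : q ∈ Icc (0 : ℝ) 2⁻¹ := ⟨hq0, by norm_num at hq ⊢; linarith⟩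
    exact binEntropy_strictMonoOn.injOn i1 i2 h2
  set ψ : ℝ → ℝ := fun t => binEntropy (q + t * (p - q)) - g (b + t * (a - b)) with hψ
  have hcx : Continuous fun t : ℝ => q + t * (p - q) := by fun_prop
  have hcy : Continuous fun t : ℝ => b + t * (a - b) := by fun_prop
  have hcont : Continuous ψ := (binEntropy_continuous.comp hcx).sub (g_continuous.comp hcy)
  obtain ⟨t0, ht0, hmin⟩ :=
    isCompact_Icc.exists_isMinOn (nonempty_Icc.mpr (zero_le_one' ℝ)) hcont.continuousOn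
  have hψ0 : ψ 0 = 0 := by simp [hψ, hgb]
  have hψ1 : ψ 1 = 0 := by simp [hψ, hga]
  by_cases hneg : ψ t0 < 0
  swap
  · have h1 : ψ t0 ≤ ψ l := hmin ⟨hl0, hl1⟩
    have h2 : 0 ≤ ψ l := le_trans (not_lt.mp hneg) h1
    simp only [hψ] at h2
    have e1 : q + l * (p - q) = l * p + (1 - l) * q := by ring
    have e2 : b + l * (a - b) = l * a + (1 - l) * b := by ring
    rw [e1, e2] at h2
    linarith
  exfalso
  have ht00 : t0 ≠ 0 := by
    intro h
    rw [h, hψ0] at hneg
    exact lt_irrefl _ hneg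
  have ht01 : t0 ≠ 1 := by
    intro h
    rw [h, hψ1] at hneg
    exact lt_irrefl _ hneg
  have h0 : 0 < t0 := lt_of_le_of_ne ht0.1 (Ne.symm ht00)
  have h1 : t0 < 1 := lt_of_le_of_ne ht0.2 ht01
  set x0 := q + t0 * (p - q) with hx0def
  set y0 := b + t0 * (a - b) with hy0def
  have hx0 : 0 < x0 := by
    rcases lt_or_gt_of_ne hpq with h | h
    · have : 0 < (1 - t0) * q := mul_pos (by linarith) (by linarith)
      have : 0 ≤ t0 * p := mul_nonneg h0.le hp0
      rw [hx0def]; nlinarith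
    · have : 0 < t0 * p := mul_pos h0 (by linarith)
      have : 0 ≤ (1 - t0) * q := mul_nonneg (by linarith) hq0
      rw [hx0def]; nlinarith
  have hx1 : x0 < 1 / 2 := by
    rcases lt_or_gt_of_ne hpq with h | h
    · have : t0 * p < t0 * (1 / 2) := mul_lt_mul_of_pos_left (by linarith) h0
      have : (1 - t0) * q ≤ (1 - t0) * (1 / 2) := mul_le_mul_of_nonneg_left hq (by linarith)
      rw [hx0def]; nlinarith
    · have : (1 - t0) * q < (1 - t0) * (1 / 2) := mul_lt_mul_of_pos_left (by linarith) (by linarith)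
      have : t0 * p ≤ t0 * (1 / 2) := mul_le_mul_of_nonneg_left hp h0.le
      rw [hx0def]; nlinarith
  have hy0 : 0 < y0 := by
    rcases lt_or_gt_of_ne hab with h | h
    · have : 0 < (1 - t0) * b := mul_pos (by linarith) (by linarith)
      have : 0 ≤ t0 * a := mul_nonneg h0.le ha
      rw [hy0def]; nlinarith
    · have : 0 < t0 * a := mul_pos h0 (by linarith)
      have : 0 ≤ (1 - t0) * b := mul_nonneg (by linarith) hb
      rw [hy0def]; nlinarith
  have hloc : IsLocalMin ψ t0 := hmin.isLocalMin (Icc_mem_nhds h0 h1)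
  set ψ1 : ℝ → ℝ := fun t =>
    (Real.log (1 - (q + t * (p - q))) - Real.log (q + t * (p - q))) * (p - q) -
      (Real.log (b + t * (a - b) + 1) - Real.log (b + t * (a - b))) * (a - b) with hψ1def
  have hdx : ∀ t : ℝ, HasDerivAt (fun t : ℝ => q + t * (p - q)) (p - q) t := by
    intro t
    have := ((hasDerivAt_id' t).mul_const (p - q)).const_add q
    simpa using this
  have hdy : ∀ t : ℝ, HasDerivAt (fun t : ℝ => b + t * (a - b)) (a - b) t := by
    intro t
    have := ((hasDerivAt_id' t).mul_const (a - b)).const_add b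
    simpa using this
  have hd : ∀ᶠ t in 𝓝 t0, HasDerivAt ψ (ψ1 t) t := by
    have ev1 : ∀ᶠ t in 𝓝 t0, 0 < q + t * (p - q) :=
      hcx.continuousAt.eventually (lt_mem_nhds hx0)
    have ev2 : ∀ᶠ t in 𝓝 t0, q + t * (p - q) < 1 :=
      hcx.continuousAt.eventually (gt_mem_nhds (show x0 < 1 by linarith))
    have ev3 : ∀ᶠ t in 𝓝 t0, 0 < b + t * (a - b) :=
      hcy.continuousAt.eventually (lt_mem_nhds hy0)
    filter_upwards [ev1, ev2, ev3] with t e1 e2 e3
    have d1' := HasDerivAt.comp t (hasDerivAt_binEntropy e1.ne' e2.ne) (hdx t)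
    have d2' := HasDerivAt.comp t (hasDerivAt_g e3) (hdy t)
    have d1 : HasDerivAt (fun t : ℝ => binEntropy (q + t * (p - q)))
        ((Real.log (1 - (q + t * (p - q))) - Real.log (q + t * (p - q))) * (p - q)) t := d1'
    have d2 : HasDerivAt (fun t : ℝ => g (b + t * (a - b)))
        ((Real.log (b + t * (a - b) + 1) - Real.log (b + t * (a - b))) * (a - b)) t := d2'
    exact d1.fun_sub d2
  have hd2 : HasDerivAt ψ1
      ((-(p - q) / (1 - x0) - (p - q) / x0) * (p - q) -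
        ((a - b) / (y0 + 1) - (a - b) / y0) * (a - b)) t0 := by
    have a1 : HasDerivAt (fun t : ℝ => Real.log (1 - (q + t * (p - q)))) (-(p - q) / (1 - x0)) t0 :=
      ((hdx t0).const_sub 1).log (by rw [← hx0def]; linarith)
    have a2 : HasDerivAt (fun t : ℝ => Real.log (q + t * (p - q))) ((p - q) / x0) t0 :=
      (hdx t0).log hx0.ne'
    have a3 : HasDerivAt (fun t : ℝ => Real.log (b + t * (a - b) + 1)) ((a - b) / (y0 + 1)) t0 :=
      ((hdy t0).add_const 1).log (by rw [← hy0def]; linarith)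
    have a4 : HasDerivAt (fun t : ℝ => Real.log (b + t * (a - b))) ((a - b) / y0) t0 :=
      (hdy t0).log hy0.ne'
    exact ((a1.fun_sub a2).mul_const (p - q)).fun_sub ((a3.fun_sub a4).mul_const (a - b))
  have hzero : ψ1 t0 = 0 := hloc.hasDerivAt_eq_zero hd.self_of_nhds
  have hlt : binEntropy x0 < g y0 := by
    have : ψ t0 = binEntropy x0 - g y0 := rfl
    linarith
  have hcap := heat_capacity_lt hx0 hx1 hy0 hlt
  set βh := Real.log (1 - x0) - Real.log x0 with hβh
  set βg := Real.log (y0 + 1) - Real.log y0 with hβg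
  have hβgpos : 0 < βg := by
    have : Real.log y0 < Real.log (y0 + 1) := Real.log_lt_log hy0 (by linarith)
    rw [hβg]; linarith
  have hrel : βh * (p - q) = βg * (a - b) := by
    have : ψ1 t0 = βh * (p - q) - βg * (a - b) := rfl
    linarith
  have hB : Bfun y0 = y0 * (y0 + 1) * βg ^ 2 := rfl
  rw [hB] at hcap
  have hneg2 := second_deriv_neg hpq hx0 (by linarith) hy0 hβgpos hrel hcap
  exact no_interior_min hloc hd hd2 hneg2

end Vale.Agent.P369
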