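import Vale.Agent.P369.Defs
import Vale.Agent.P369.Output
import Vale.Agent.P369.QuasiMean

namespace Vale.Agent.P369

open Polynomial Real

theorem amp00 (η : ℝ) (m : ℕ) : amp η 0 0 m ^ 2 = if m = 0 then 1 else 0 := by
  unfold amp
  rcases Nat.eq_zero_or_pos m with rfl | hm
  · simp
  · have : m ≠ 0 := by omega
    simp [this, Polynomial.coeff_one]

theorem amp10 {η : ℝ} (h0 : 0 ≤ η) (h1 : η ≤ 1) (m : ℕ) :
    amp η 1 0 m ^ 2 = if m = 0 then 1 - η else if m = 1 then η else 0 := by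
  unfold amp
  have s1 : Real.sqrt η ^ 2 = η := Real.sq_sqrt h0
  have s2 : Real.sqrt (1 - η) ^ 2 = 1 - η := Real.sq_sqrt (by linarith)
  match m with
  | 0 => simp [s2]
  | 1 => simp [s1]
  | (k + 2) => simp

theorem amp01 {η : ℝ} (h0 : 0 ≤ η) (h1 : η ≤ 1) (m : ℕ) :
    amp η 0 1 m ^ 2 = if m = 0 then η else if m = 1 then 1 - η else 0 := by
  unfold amp
  have s1 : Real.sqrt η ^ 2 = η := Real.sq_sqrt h0
  have s2 : Real.sqrt (1 - η) ^ 2 = 1 - η := Real.sq_sqrt (by linarith)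
  match m with
  | 0 => simp [s1]
  | 1 => simp [s2]
  | (k + 2) => simp

theorem coeff_quad (A B D : ℝ) (m : ℕ) :
    (C A * X ^ 2 + C B * X - C D : ℝ[X]).coeff m =
      if m = 0 then -D else if m = 1 then B else if m = 2 then A else 0 := by
  simp only [coeff_sub, coeff_add, coeff_C_mul, coeff_X_pow, coeff_X, coeff_C]
  match m with
  | 0 => simp
  | 1 => simp
  | 2 => simp
  | (k + 3) => simp

theorem amp11 {η : ℝ} (h0 : 0 ≤ η) (h1 : η ≤ 1) (m : ℕ) :
    amp η 1 1 m ^ 2 = if m = 0 then 2 * η * (1 - η) else if m = 1 then (2 * η - 1) ^ 2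
      else if m = 2 then 2 * η * (1 - η) else 0 := by
  unfold amp
  have s1 : Real.sqrt η ^ 2 = η := Real.sq_sqrt h0
  have s2 : Real.sqrt (1 - η) ^ 2 = 1 - η := Real.sq_sqrt (by linarith)
  set c := Real.sqrt η with hc
  set s := Real.sqrt (1 - η) with hs
  have hpoly : (C c * X - C s) ^ 1 * (C s * X + C c) ^ 1 =
      C (c * s) * X ^ 2 + C (c ^ 2 - s ^ 2) * X - C (s * c) := by
    simp only [map_mul, map_sub, map_pow]
    ring
  rw [hpoly, coeff_quad]
  have s3 : Real.sqrt 2 ^ 2 = 2 := Real.sq_sqrt (by norm_num)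
  match m with
  | 0 =>
    simp [mul_pow, s3]
    rw [s1, s2]; ring
  | 1 =>
    simp
    rw [s1, s2]; ring
  | 2 =>
    simp [mul_pow, s3]
    rw [s1, s2]; ring
  | (k + 3) =>
    simp

end Vale.Agent.P369
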